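import Vale.Agent.P345.Rec

/-!
Matiyasevich's single-fold conjecture: every recursively enumerable subset of `ℕ ^ n` has a
single-fold Diophantine representation.
-/

namespace Vale.Agent.Results.P345.SingleFold

open Vale.Agent.P345

theorem result (n : ℕ) (S : Set (Fin n → ℕ)) (hS : REPred fun a => a ∈ S) :
    ∃ (m : ℕ) (P : MvPolynomial (Fin n ⊕ Fin m) ℤ),
      (∀ a : Fin n → ℕ, a ∈ S ↔ ∃ w : Fin m → ℕ,
        MvPolynomial.eval (Sum.elim (fun i => (a i : ℤ)) (fun j => (w j : ℤ))) P = 0) ∧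
      ∀ a : Fin n → ℕ, Set.Subsingleton {w : Fin m → ℕ |
        MvPolynomial.eval (Sum.elim (fun i => (a i : ℤ)) (fun j => (w j : ℤ))) P = 0} := by
  obtain ⟨σ, _, f, hf, h1, h2⟩ := sf_rePred hS
  let e := Fintype.equivFin σ
  obtain ⟨P, hP⟩ := hf.comp (Sum.map (fun i : Fin n => i) e)
  have key : ∀ (a : Fin n → ℕ) (w : Fin (Fintype.card σ) → ℕ),
      MvPolynomial.eval (Sum.elim (fun i => (a i : ℤ)) (fun j => (w j : ℤ))) P =
        f a fun s => w (e s) := fun a w => by
    refine Eq.trans ?_ (hP (Sum.elim a w)).symm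
    congr 2
    funext i
    rcases i with i | i <;> rfl
  refine ⟨Fintype.card σ, P, fun a => ?_, fun a w hw w' hw' => ?_⟩
  · refine (enc_iff (S := fun a => a ∈ S) a).symm.trans ((h1 a).trans ⟨?_, ?_⟩)
    · rintro ⟨w, hw⟩
      exact ⟨fun j => w (e.symm j), by simpa [key] using hw⟩
    · rintro ⟨w, hw⟩
      exact ⟨_, (key a w).symm.trans hw⟩
  · have := h2 a _ _ ((key a w).symm.trans hw) ((key a w').symm.trans hw')
    funext j
    simpa using congrFun this (e.symm j)

end Vale.Agent.Results.P345.SingleFold
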